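import Vale.Agent.P235.Core
import Vale.Agent.P235.Elim
import Vale.Agent.P235.Metr
import Vale.Agent.P235.Emb

namespace Vale.Agent.Results.P235.A_tw

open Vale.Agent.P235 MeasureTheory

theorem result (k : ℕ) : ∃ C : ℝ, ∀ (V : Type) [Fintype V] (G : SimpleGraph V), G.Connected →
    TwLe G k → ∀ len : Sym2 V → ℝ, (∀ e ∈ G.edgeSet, 0 < len e) →
      ∃ (Ω : Type) (_ : MeasurableSpace Ω) (μ : Measure Ω) (f : V → Lp ℝ 1 μ),
        ∀ x y, gdist G len x y ≤ ‖f x - f y‖ ∧ ‖f x - f y‖ ≤ C * gdist G len x y := by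
  classical
  obtain ⟨C, hC, h⟩ := core (k + 1)
  refine ⟨C, fun V _ G hG htw len hlen => ?_⟩
  have : Nonempty V := hG.nonempty
  obtain ⟨R, hR⟩ := exists_RT G k htw
  obtain ⟨inst, hd, hL⟩ := exists_metric G hG len hlen R hR
  obtain ⟨Q, hQ, hb⟩ := h V R hL
  obtain ⟨Ω, m, μ, f, hf⟩ := exists_emb Q hQ C hC
  refine ⟨Ω, m, μ, f, fun x y => ?_⟩
  rw [hf, ← hd]
  exact ⟨(hb x y).1, mul_le_mul_of_nonneg_left (hb x y).2 hC⟩

end Vale.Agent.Results.P235.A_tw
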